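import Vale.Agent.P358.Assembly

namespace Vale.Agent.Results.P358.Additivity

open Vale.Agent.P358

/-- The Holevo capacity of every generalized amplitude-damping channel is additive under tensor
powers, and its classical capacity equals its Holevo capacity. -/
theorem result (γ ν : ℝ) (hγ : γ ∈ Set.Icc (0 : ℝ) 1) (hν : ν ∈ Set.Icc (0 : ℝ) 1) :
    (∀ n : ℕ, 1 ≤ n →
      BddAbove (holevoSet (tensorPow (gadc γ ν) n)) ∧
      holevo (tensorPow (gadc γ ν) n) = n * holevo (gadc γ ν)) ∧
    capacity (gadc γ ν) = holevo (gadc γ ν) :=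
  ⟨fun n _ => additivity hγ hν n, capacity_eq hγ hν⟩

end Vale.Agent.Results.P358.Additivity
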