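import Vale.Agent.P358.Formula

/-!
# P358: the classical capacity of the generalized amplitude damping channel: additivity,
`C = χ`, and the explicit value.
-/

namespace Vale.Agent.Results.P358.CapacityFormula

open Vale.Agent.P358

/-- For all `γ, ν ∈ [0,1]`: the Holevo capacity of `A_{γ,ν}` is additive,
`χ(A^{⊗ n}) = n χ(A)` for all `n`, the classical capacity `C(A)` equals `χ(A)`, and both are equal
to the maximum over `q ∈ [0,1]` of
`h₂((1-γ)q + γν) - h₂((1 + √(1 - 4 L(q)))/2)`, `L(q) = γ(1-γ)(q-ν)² + γν(1-ν)`. -/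
theorem result (γ ν : ℝ) (hγ : γ ∈ Set.Icc (0 : ℝ) 1) (hν : ν ∈ Set.Icc (0 : ℝ) 1) :
    (∀ n : ℕ, BddAbove (holevoSet (tensorPow (gadc γ ν) n)) ∧
      holevo (tensorPow (gadc γ ν) n) = n * holevo (gadc γ ν)) ∧
    BddAbove (holevoSet (gadc γ ν)) ∧
    capacity (gadc γ ν) = holevo (gadc γ ν) ∧
    IsGreatest ((fun q : ℝ => (Real.binEntropy ((1 - γ) * q + γ * ν) -
      Real.binEntropy ((1 + Real.sqrt (1 - 4 * (γ * (1 - γ) * (q - ν) ^ 2 + γ * ν * (1 - ν)))) / 2))
        / Real.log 2) '' Set.Icc (0 : ℝ) 1) (capacity (gadc γ ν)) := by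
  refine ⟨fun n => additivity hγ hν n, bddAbove_holevo_gadc hγ hν, capacity_eq hγ hν, ?_⟩
  rw [capacity_eq hγ hν]
  have h := holevo_isGreatest hγ hν
  have e : hGap γ ν = fun q : ℝ => (Real.binEntropy ((1 - γ) * q + γ * ν) -
      Real.binEntropy ((1 + Real.sqrt (1 - 4 * (γ * (1 - γ) * (q - ν) ^ 2 + γ * ν * (1 - ν)))) / 2))
        / Real.log 2 := by
    funext q
    rw [hGap, Fq, ent2, Lstar_eq]
  rw [e] at h
  exact h

end Vale.Agent.Results.P358.CapacityFormula
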